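import Vale.Agent.P091.AD.H880.Thin

/-!
# P091, block AD, row AD-2 (helper880), part 2: truncation of a labelled law, (0.3) of #10233
-/

set_option autoImplicit false

open Finset Real
open Vale.Agent.P065.Ent

noncomputable section

namespace Vale.Agent.P091.AD.H880

section

variable {Γ Ω Z : Type} [Fintype Ω]

/-- the likelihood ratio of a sub-probability reference kernel integrates to at most one -/
lemma sum_ratio_le {A : Finset Γ} {μ : Ω → ℝ} (hμ : IsProb μ) (a : Ω → Γ) (z : Ω → Z)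
    (r : Z → Γ → ℝ) (hA : ∀ ω, a ω ∈ A) (hr0 : ∀ l x, 0 ≤ r l x)
    (hr1 : ∀ l, ∑ x ∈ A, r l x ≤ 1) :
    ∑ ω, μ ω * (Pr μ z (z ω) * r (z ω) (a ω) / Pr μ (fun ω => (a ω, z ω)) (a ω, z ω)) ≤ 1 := by
  classical
  set az : Ω → Γ × Z := fun ω => (a ω, z ω) with haz
  have h1 : ∑ ω, μ ω * (Pr μ z (z ω) * r (z ω) (a ω) / Pr μ az (a ω, z ω)) =
      ∑ p ∈ univ.image az, Pr μ az p * (Pr μ z p.2 * r p.2 p.1 / Pr μ az p) :=
    sum_fiber μ az (fun p => Pr μ z p.2 * r p.2 p.1 / Pr μ az p)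
  rw [h1]
  have h2 : ∀ p ∈ univ.image az, Pr μ az p * (Pr μ z p.2 * r p.2 p.1 / Pr μ az p) ≤
      Pr μ z p.2 * r p.2 p.1 := by
    intro p _
    rcases eq_or_ne (Pr μ az p) 0 with h0 | h0
    · rw [h0, zero_mul]
      exact mul_nonneg (Pr_nonneg hμ _ _) (hr0 _ _)
    · rw [mul_div_cancel₀ _ h0]
  refine (sum_le_sum h2).trans ?_
  have h3 : univ.image az ⊆ A ×ˢ univ.image z := by
    intro p hp
    obtain ⟨ω, -, rfl⟩ := mem_image.mp hp
    exact mem_product.mpr ⟨hA ω, mem_image_of_mem z (mem_univ ω)⟩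
  refine (sum_le_sum_of_subset_of_nonneg h3 fun p _ _ =>
    mul_nonneg (Pr_nonneg hμ _ _) (hr0 _ _)).trans ?_
  rw [sum_product_right]
  calc ∑ l ∈ univ.image z, ∑ x ∈ A, Pr μ z l * r l x ≤ ∑ l ∈ univ.image z, Pr μ z l := by
        refine sum_le_sum fun l _ => ?_
        rw [← mul_sum]
        exact mul_le_of_le_one_right (Pr_nonneg hμ _ _) (hr1 l)
    _ = 1 := sum_Pr hμ z

/-- the mass of the points at which the density is large -/
lemma mass_bad_le {A : Finset Γ} {μ : Ω → ℝ} (hμ : IsProb μ) (a : Ω → Γ) (z : Ω → Z)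
    (r : Z → Γ → ℝ) (K0 : ℝ) (hA : ∀ ω, a ω ∈ A) (hr0 : ∀ l x, 0 ≤ r l x)
    (hr1 : ∀ l, ∑ x ∈ A, r l x ≤ 1) (hpos : ∀ ω, 0 < μ ω → 0 < r (z ω) (a ω))
    (hD : ∑ ω, μ ω * log (Pr μ (fun ω => (a ω, z ω)) (a ω, z ω)
      / (Pr μ z (z ω) * r (z ω) (a ω))) ≤ K0) (G : Ω → Prop) [DecidablePred G]
    (hG : ∀ ω, G ω ↔ Pr μ (fun ω => (a ω, z ω)) (a ω, z ω)
      ≤ exp (8 * (K0 + 1)) * (Pr μ z (z ω) * r (z ω) (a ω))) :
    0 ≤ K0 ∧ ∑ ω, (if G ω then 0 else μ ω) ≤ 1 / 8 := by
  classical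
  set az : Ω → Γ × Z := fun ω => (a ω, z ω) with haz
  set u : Ω → ℝ := fun ω => Pr μ z (z ω) * r (z ω) (a ω) with hu
  set v : Ω → ℝ := fun ω => Pr μ az (a ω, z ω) with hv
  have hD' : ∑ ω, μ ω * log (v ω / u ω) ≤ K0 := hD
  have hR : ∑ ω, μ ω * (u ω / v ω) ≤ 1 := sum_ratio_le hμ a z r hA hr0 hr1
  have hup : ∀ ω, 0 < μ ω → 0 < u ω := fun ω h => mul_pos (Pr_pos hμ z h) (hpos ω h)
  have hvp : ∀ ω, 0 < μ ω → 0 < v ω := fun ω h => Pr_pos hμ az h
  have hu0 : ∀ ω, 0 ≤ u ω := fun ω => mul_nonneg (Pr_nonneg hμ _ _) (hr0 _ _)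
  have hv0 : ∀ ω, 0 ≤ v ω := fun ω => Pr_nonneg hμ _ _
  -- pointwise
  have p1 : ∀ ω, μ ω * (1 - u ω / v ω) ≤ μ ω * log (v ω / u ω) := by
    intro ω
    rcases (hμ.nonneg ω).eq_or_lt with h0 | h0
    · rw [← h0]; simp
    · refine mul_le_mul_of_nonneg_left ?_ h0.le
      have h1 := log_le_sub_one_of_pos (div_pos (hup ω h0) (hvp ω h0))
      have h2 : log (v ω / u ω) = - log (u ω / v ω) := by
        rw [← log_inv, inv_div]
      linarith
  have K0nn : 0 ≤ K0 := by
    have h1 := (sum_le_sum fun ω (_ : ω ∈ univ) => p1 ω).trans hD'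
    have h2 : ∑ ω, μ ω * (1 - u ω / v ω) = 1 - ∑ ω, μ ω * (u ω / v ω) := by
      have e : ∑ ω, μ ω * (1 - u ω / v ω) = ∑ ω, (μ ω - μ ω * (u ω / v ω)) :=
        sum_congr rfl fun ω _ => by ring
      rw [e, sum_sub_distrib, hμ.sum]
    rw [h2] at h1
    linarith
  refine ⟨K0nn, ?_⟩
  have p2 : ∀ ω, (if G ω then μ ω * (1 - u ω / v ω) else μ ω * (8 * (K0 + 1)))
      ≤ μ ω * log (v ω / u ω) := by
    intro ω
    split_ifs with h
    · exact p1 ω
    · rcases (hμ.nonneg ω).eq_or_lt with h0 | h0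
      · rw [← h0]; simp
      · refine mul_le_mul_of_nonneg_left ?_ h0.le
        rw [hG ω] at h
        push Not at h
        have h1 : exp (8 * (K0 + 1)) < v ω / u ω := by
          rw [lt_div_iff₀ (hup ω h0)]
          exact h
        exact (log_exp (8 * (K0 + 1))).symm.le.trans (log_le_log (exp_pos _) h1.le)
  have h3 := (sum_le_sum fun ω (_ : ω ∈ univ) => p2 ω).trans hD'
  have p3 : ∀ ω, (if G ω then 0 else μ ω) * (8 * (K0 + 1) - 1) + μ ω - μ ω * (u ω / v ω)
      ≤ (if G ω then μ ω * (1 - u ω / v ω) else μ ω * (8 * (K0 + 1))) := by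
    intro ω
    split_ifs with h
    · linarith
    · have : 0 ≤ μ ω * (u ω / v ω) := mul_nonneg (hμ.nonneg ω) (div_nonneg (hu0 ω) (hv0 ω))
      linarith
  have h4 := (sum_le_sum fun ω (_ : ω ∈ univ) => p3 ω).trans h3
  have h5 : ∑ ω, ((if G ω then 0 else μ ω) * (8 * (K0 + 1) - 1) + μ ω - μ ω * (u ω / v ω))
      = (∑ ω, (if G ω then 0 else μ ω)) * (8 * (K0 + 1) - 1) + 1 - ∑ ω, μ ω * (u ω / v ω) := by
    rw [sum_sub_distrib, sum_add_distrib, ← sum_mul, hμ.sum]
  rw [h5] at h4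
  set q : ℝ := ∑ ω, (if G ω then 0 else μ ω) with hq
  have h6 : q * (8 * (K0 + 1) - 1) ≤ K0 := by linarith
  have h7 : 0 < 8 * (K0 + 1) - 1 := by linarith
  have h8 : q ≤ K0 / (8 * (K0 + 1) - 1) := by rwa [le_div_iff₀ h7]
  refine h8.trans ?_
  rw [div_le_div_iff₀ h7 (by norm_num)]
  linarith

/-- the mass of the bad labels -/
lemma mass_label_le {μ : Ω → ℝ} (hμ : IsProb μ) (z : Ω → Z) (G : Ω → Prop) [DecidablePred G]
    (Gd : Ω → Prop) [DecidablePred Gd] [DecidableEq Z]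
    (hGd : ∀ ω, Gd ω ↔ ∑ ω', (if z ω' = z ω then (if G ω' then 0 else μ ω') else 0)
      ≤ Pr μ z (z ω) / 2) :
    ∑ ω, (if Gd ω then 0 else μ ω) ≤ 2 * ∑ ω, (if G ω then 0 else μ ω) := by
  set B : Ω → ℝ := fun ω => ∑ ω', (if z ω' = z ω then (if G ω' then 0 else μ ω') else 0) with hB
  have hg0 : ∀ ω', 0 ≤ (if G ω' then 0 else μ ω') := by
    intro ω'
    split_ifs
    · exact le_rfl
    · exact hμ.nonneg ω'
  have hB0 : ∀ ω, 0 ≤ B ω := fun ω => sum_nonneg fun ω' _ => by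
    split_ifs
    · exact le_rfl
    · exact hμ.nonneg ω'
    · exact le_rfl
  have h1 : ∀ ω, (if Gd ω then 0 else μ ω) ≤ μ ω * (2 * B ω / Pr μ z (z ω)) := by
    intro ω
    have hn : 0 ≤ μ ω * (2 * B ω / Pr μ z (z ω)) :=
      mul_nonneg (hμ.nonneg ω) (div_nonneg (mul_nonneg (by norm_num) (hB0 ω)) (Pr_nonneg hμ _ _))
    split_ifs with h
    · exact hn
    · rcases (hμ.nonneg ω).eq_or_lt with h0 | h0
      · rw [← h0]; simp
      · have hP := Pr_pos hμ z h0
        rw [hGd ω] at h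
        push Not at h
        have h2 : 1 ≤ 2 * B ω / Pr μ z (z ω) := by
          rw [le_div_iff₀ hP]
          have : Pr μ z (z ω) / 2 < B ω := h
          linarith
        calc μ ω = μ ω * 1 := (mul_one _).symm
          _ ≤ _ := mul_le_mul_of_nonneg_left h2 h0.le
  refine (sum_le_sum fun ω (_ : ω ∈ univ) => h1 ω).trans ?_
  have h2 : ∀ ω, μ ω * (2 * B ω / Pr μ z (z ω)) =
      ∑ ω', 2 * ((if G ω' then 0 else μ ω') *
        (if z ω' = z ω then μ ω / Pr μ z (z ω') else 0)) := by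
    intro ω
    have e1 : μ ω * (2 * B ω / Pr μ z (z ω)) = 2 * (B ω * (μ ω / Pr μ z (z ω))) := by ring
    rw [e1, hB]
    simp only
    rw [sum_mul, mul_sum]
    refine sum_congr rfl fun ω' _ => ?_
    by_cases h : z ω' = z ω
    · simp only [h, if_true]
    · simp [h]
  rw [sum_congr rfl fun ω _ => h2 ω, sum_comm]
  have h3 : ∀ ω', ∑ ω, 2 * ((if G ω' then 0 else μ ω') *
      (if z ω' = z ω then μ ω / Pr μ z (z ω') else 0)) ≤ 2 * (if G ω' then 0 else μ ω') := by
    intro ω'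
    rw [← mul_sum, ← mul_sum]
    refine mul_le_mul_of_nonneg_left ?_ (by norm_num)
    refine mul_le_of_le_one_right (hg0 ω') ?_
    have e : ∑ ω, (if z ω' = z ω then μ ω / Pr μ z (z ω') else 0)
        = (∑ ω, if z ω = z ω' then μ ω else 0) / Pr μ z (z ω') := by
      rw [sum_div]
      refine sum_congr rfl fun ω _ => ?_
      by_cases h : z ω' = z ω
      · rw [if_pos h, if_pos h.symm]
      · rw [if_neg h, if_neg (fun e => h e.symm), zero_div]
    rw [e]
    have e2 : (∑ ω, if z ω = z ω' then μ ω else 0) = Pr μ z (z ω') := by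
      unfold Pr
      exact sum_congr rfl fun ω _ => by split_ifs <;> rfl
    rw [e2]
    exact div_self_le_one _
  refine (sum_le_sum fun ω' (_ : ω' ∈ univ) => h3 ω').trans (le_of_eq ?_)
  rw [← mul_sum]

end

/-- **AD-2**: truncation of a labelled law, (0.3) -/
theorem trunc : Trunc := by
  classical
  intro Γ _ A lam r c K0 hA hr0 hr1 hrc hpos hD
  have hμ := lam.prob
  set μ := lam.μ with hμd
  set z := lam.z with hz
  set a := lam.a with ha
  set az : lam.Ω → Γ × lam.Z := fun ω => (a ω, z ω) with haz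
  obtain ⟨G, hG⟩ : ∃ G : lam.Ω → Prop, ∀ ω, G ω ↔ Pr μ az (az ω)
      ≤ exp (8 * (K0 + 1)) * (Pr μ z (z ω) * r (z ω) (a ω)) := ⟨_, fun ω => Iff.rfl⟩
  obtain ⟨hK0, hq⟩ := mass_bad_le hμ a z r K0 hA hr0 hr1 hpos hD G hG
  obtain ⟨Gd, hGd⟩ : ∃ Gd : lam.Ω → Prop, ∀ ω, Gd ω ↔
    ∑ ω', (if z ω' = z ω then (if G ω' then 0 else μ ω') else 0) ≤ Pr μ z (z ω) / 2 :=
    ⟨_, fun ω => Iff.rfl⟩
  have hb := mass_label_le hμ z G Gd hGd
  set E : lam.Ω → Prop := fun ω => G ω ∧ Gd ω with hE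
  set PE0 : ℝ := ∑ ω, (if E ω then μ ω else 0) with hPE0
  have hPE : 5 / 8 ≤ PE0 := by
    have h1 : ∀ ω, μ ω - (if G ω then 0 else μ ω) - (if Gd ω then 0 else μ ω)
        ≤ (if E ω then μ ω else 0) := by
      intro ω
      have := hμ.nonneg ω
      by_cases h1 : G ω <;> by_cases h2 : Gd ω
      · rw [if_pos h1, if_pos h2, if_pos (show E ω from ⟨h1, h2⟩)]; linarith
      · rw [if_pos h1, if_neg h2, if_neg (fun h : E ω => h2 h.2)]; linarith
      · rw [if_neg h1, if_pos h2, if_neg (fun h : E ω => h1 h.1)]; linarith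
      · rw [if_neg h1, if_neg h2, if_neg (fun h : E ω => h1 h.1)]; linarith
    have h2 := sum_le_sum fun ω (_ : ω ∈ univ) => h1 ω
    rw [sum_sub_distrib, sum_sub_distrib, hμ.sum] at h2
    linarith
  have hPE0' : 0 < PE0 := by linarith
  set μ' : lam.Ω → ℝ := fun ω => if E ω then μ ω / PE0 else 0 with hμ'
  have hμ'0 : ∀ ω, 0 ≤ μ' ω := by
    intro ω
    simp only [hμ']
    split_ifs
    · exact div_nonneg (hμ.nonneg ω) hPE0'.le
    · exact le_rfl
  have hμ'p : IsProb μ' := by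
    refine ⟨hμ'0, ?_⟩
    have : ∀ ω, μ' ω = (if E ω then μ ω else 0) / PE0 := by
      intro ω
      simp only [hμ']
      split_ifs
      · rfl
      · rw [zero_div]
    rw [sum_congr rfl fun ω _ => this ω, ← sum_div]
    exact div_self hPE0'.ne'
  have hμ'le : ∀ ω, μ' ω ≤ μ ω / PE0 := by
    intro ω
    simp only [hμ']
    split_ifs
    · exact le_rfl
    · exact div_nonneg (hμ.nonneg ω) hPE0'.le
  -- measurability of `E`
  have hGz : ∀ ω ω', az ω' = az ω → (G ω' ↔ G ω) := by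
    intro ω ω' h
    have h1 : a ω' = a ω := (Prod.mk.inj h).1
    have h2 : z ω' = z ω := (Prod.mk.inj h).2
    rw [hG ω', hG ω, h, h1, h2]
  have hGdz : ∀ ω ω', z ω' = z ω → (Gd ω' ↔ Gd ω) := by
    intro ω ω' h
    rw [hGd ω', hGd ω, h]
  -- the label probabilities
  have hz' : ∀ ω, Gd ω → Pr μ z (z ω) / 2 / PE0 ≤ Pr μ' z (z ω) := by
    intro ω hω
    have h1 : Pr μ' z (z ω) = (Pr μ z (z ω) -
        ∑ ω', (if z ω' = z ω then (if G ω' then 0 else μ ω') else 0)) / PE0 := by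
      unfold Pr
      rw [← sum_sub_distrib, sum_div]
      refine sum_congr rfl fun ω' _ => ?_
      by_cases h : z ω' = z ω
      · rw [if_pos h, if_pos h, if_pos h]
        have h2 : Gd ω' := (hGdz ω ω' h).mpr hω
        by_cases h3 : G ω'
        · simp only [hμ']
          rw [if_pos (show E ω' from ⟨h3, h2⟩), if_pos h3, sub_zero]
        · simp only [hμ']
          rw [if_neg (fun h : E ω' => h3 h.1), if_neg h3, sub_self, zero_div]
      · rw [if_neg h, if_neg h, if_neg h, sub_zero, zero_div]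
    rw [h1]
    refine div_le_div_of_nonneg_right ?_ hPE0'.le
    have := (hGd ω).mp hω
    linarith
  refine ⟨{ Ω := lam.Ω, fin := lam.fin, μ := μ', prob := hμ'p, Z := lam.Z, z := z, a := a },
    ?_, ?_⟩
  · intro ω
    refine ⟨hA ω, ?_⟩
    show Pr μ' az (az ω) * (A.card : ℝ) ≤ exp (c + 8 * (K0 + 1) + log 2) * Pr μ' z (z ω)
    by_cases hω : E ω
    · have h1 : Pr μ' az (az ω) ≤ Pr μ az (az ω) / PE0 := by
        unfold Pr
        rw [sum_div]
        refine sum_le_sum fun ω' _ => ?_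
        split_ifs
        · exact hμ'le ω'
        · rw [zero_div]
      have h2 := hz' ω hω.2
      have h3 : Pr μ az (az ω) ≤ exp (8 * (K0 + 1)) * (Pr μ z (z ω) * r (z ω) (a ω)) := (hG ω).mp hω.1
      have h4 : r (z ω) (a ω) * (A.card : ℝ) ≤ exp c := hrc _ _ (hA ω)
      have h5 : exp (c + 8 * (K0 + 1) + log 2) = exp c * exp (8 * (K0 + 1)) * 2 := by
        rw [exp_add, exp_add, exp_log (by norm_num)]
      rw [h5]
      have hc0 : (0 : ℝ) ≤ A.card := Nat.cast_nonneg _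
      calc Pr μ' az (az ω) * (A.card : ℝ)
          ≤ (Pr μ az (az ω) / PE0) * A.card := mul_le_mul_of_nonneg_right h1 hc0
        _ ≤ (exp (8 * (K0 + 1)) * (Pr μ z (z ω) * r (z ω) (a ω)) / PE0) * A.card :=
            mul_le_mul_of_nonneg_right (div_le_div_of_nonneg_right h3 hPE0'.le) hc0
        _ = exp (8 * (K0 + 1)) * Pr μ z (z ω) / PE0 * (r (z ω) (a ω) * A.card) := by ring
        _ ≤ exp (8 * (K0 + 1)) * Pr μ z (z ω) / PE0 * exp c :=
            mul_le_mul_of_nonneg_left h4 (div_nonneg (mul_nonneg (exp_pos _).le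
              (Pr_nonneg hμ _ _)) hPE0'.le)
        _ = exp c * exp (8 * (K0 + 1)) * 2 * (Pr μ z (z ω) / 2 / PE0) := by ring
        _ ≤ exp c * exp (8 * (K0 + 1)) * 2 * Pr μ' z (z ω) :=
            mul_le_mul_of_nonneg_left h2 (by positivity)
    · have h1 : Pr μ' az (az ω) = 0 := by
        unfold Pr
        refine sum_eq_zero fun ω' _ => ?_
        by_cases h : az ω' = az ω
        · rw [if_pos h]
          simp only [hμ']
          rw [if_neg]
          intro h2
          exact hω ⟨(hGz ω ω' h).mp h2.1, (hGdz ω ω' (Prod.mk.inj h).2).mp h2.2⟩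
        · rw [if_neg h]
      rw [h1, zero_mul]
      exact mul_nonneg (exp_pos _).le (Pr_nonneg hμ'p _ _)
  · intro p hp
    have hb1 : IsProb (cc μ' z) := cc_isProb hμ'p z
    have hb0 : IsProb (cc μ z) := cc_isProb hμ z
    refine thin_le (N := lam.N) (zl := lam.zl) hb0 hb1 ?_ p hp
    intro u
    have hn := hb0.nonneg u
    by_cases hzu : z u.1 = z u.2
    · by_cases h1 : E u.1
      · by_cases h2 : E u.2
        · have e1 : cc μ' z u = (μ u.1 / PE0) * (μ u.2 / PE0) / Pr μ' z (z u.1) := by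
            unfold cc
            rw [if_pos hzu]
            simp only [hμ']
            rw [if_pos h1, if_pos h2]
          have e2 : cc μ z u = μ u.1 * μ u.2 / Pr μ z (z u.1) := by
            unfold cc
            rw [if_pos hzu]
          rcases (hμ.nonneg u.1).eq_or_lt with h0 | h0
          · rw [e1, e2, ← h0]; simp
          · have hP := Pr_pos hμ z h0
            have h3 := hz' u.1 h1.2
            have h4 : 0 < Pr μ z (z u.1) / 2 / PE0 := by positivity
            have h5 : 0 < Pr μ' z (z u.1) := lt_of_lt_of_le h4 h3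
            rw [e1, e2]
            have h6 : (μ u.1 / PE0) * (μ u.2 / PE0) / Pr μ' z (z u.1)
                ≤ (μ u.1 / PE0) * (μ u.2 / PE0) / (Pr μ z (z u.1) / 2 / PE0) :=
              div_le_div_of_nonneg_left (mul_nonneg (div_nonneg h0.le hPE0'.le)
                (div_nonneg (hμ.nonneg _) hPE0'.le)) h4 h3
            have h7 : (μ u.1 / PE0) * (μ u.2 / PE0) / (Pr μ z (z u.1) / 2 / PE0)
                = (2 / PE0) * (μ u.1 * μ u.2 / Pr μ z (z u.1)) := by
              field_simp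
            have h8 : 5 / 16 * (2 / PE0) ≤ 1 := by
              rw [mul_div_assoc', div_le_one hPE0']
              linarith
            have h9 : 0 ≤ μ u.1 * μ u.2 / Pr μ z (z u.1) :=
              div_nonneg (mul_nonneg h0.le (hμ.nonneg _)) hP.le
            calc 5 / 16 * ((μ u.1 / PE0) * (μ u.2 / PE0) / Pr μ' z (z u.1))
                ≤ 5 / 16 * ((2 / PE0) * (μ u.1 * μ u.2 / Pr μ z (z u.1))) := by
                  rw [← h7]
                  exact mul_le_mul_of_nonneg_left h6 (by norm_num)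
              _ = (5 / 16 * (2 / PE0)) * (μ u.1 * μ u.2 / Pr μ z (z u.1)) := by ring
              _ ≤ 1 * (μ u.1 * μ u.2 / Pr μ z (z u.1)) := mul_le_mul_of_nonneg_right h8 h9
              _ = _ := one_mul _
        · have e1 : cc μ' z u = 0 := by
            unfold cc
            rw [if_pos hzu]
            simp only [hμ']
            rw [if_neg h2]
            simp
          rw [e1, mul_zero]
          exact hn
      · have e1 : cc μ' z u = 0 := by
          unfold cc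
          rw [if_pos hzu]
          simp only [hμ']
          rw [if_neg h1]
          simp
        rw [e1, mul_zero]
        exact hn
    · have e1 : cc μ' z u = 0 := by
        unfold cc
        rw [if_neg hzu]
      rw [e1, mul_zero]
      exact hn

end Vale.Agent.P091.AD.H880
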