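import Vale.Agent.P091.AD.Base

/-!
# P091, block AD, row AD-2 (helper880), part 1: thinning of independent letters

Tools: entropies under equivalences of sample spaces, concavity of conditional entropy in the
law, independence, letters added to an environment, binomial thinning.
-/

set_option autoImplicit false

open Finset Real
open Vale.Agent.P065.Ent

noncomputable section

namespace Vale.Agent.P091.AD.H880

section general
variable {Ω Ω' : Type*} [Fintype Ω] [Fintype Ω'] {α β γ : Type*}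

lemma Pr_equiv (e : Ω' ≃ Ω) (μ : Ω → ℝ) (X : Ω → α) (x : α) :
    Pr (fun w => μ (e w)) (fun w => X (e w)) x = Pr μ X x := by
  classical
  unfold Pr
  exact Equiv.sum_comp e (fun ω => if X ω = x then μ ω else 0)

lemma H_equiv (e : Ω' ≃ Ω) (μ : Ω → ℝ) (X : Ω → α) :
    H (fun w => μ (e w)) (fun w => X (e w)) = H μ X := by
  unfold H
  simp only [Pr_equiv e μ X]
  exact Equiv.sum_comp e (fun ω => μ ω * (- log (Pr μ X (X ω))))

lemma Hc_equiv (e : Ω' ≃ Ω) (μ : Ω → ℝ) (X : Ω → α) (Y : Ω → β) :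
    Hc (fun w => μ (e w)) (fun w => X (e w)) (fun w => Y (e w)) = Hc μ X Y := by
  unfold Hc
  rw [H_equiv e μ Y]
  have := H_equiv e μ (fun ω => (X ω, Y ω))
  rw [← this]

lemma isProb_mix {P1 P2 : Ω → ℝ} (h1 : IsProb P1) (h2 : IsProb P2) {s : ℝ} (hs : 0 ≤ s)
    (hs1 : s ≤ 1) : IsProb (fun ω => s * P1 ω + (1 - s) * P2 ω) := by
  refine ⟨fun ω => ?_, ?_⟩
  · have := h1.nonneg ω
    have := h2.nonneg ω
    have : 0 ≤ 1 - s := by linarith
    positivity
  · rw [sum_add_distrib, ← mul_sum, ← mul_sum, h1.sum, h2.sum]; ring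

/-- conditional entropy is concave in the law -/
theorem Hc_concave {P1 P2 : Ω → ℝ} (h1 : IsProb P1) (h2 : IsProb P2) {s : ℝ} (hs : 0 < s)
    (hs1 : s < 1) (X : Ω → α) (Y : Ω → β) :
    s * Hc P1 X Y + (1 - s) * Hc P2 X Y ≤ Hc (fun ω => s * P1 ω + (1 - s) * P2 ω) X Y := by
  classical
  set P : Ω → ℝ := fun ω => s * P1 ω + (1 - s) * P2 ω with hP
  have hPp : IsProb P := isProb_mix h1 h2 hs.le hs1.le
  have hs' : 0 < 1 - s := by linarith
  set q : β → α → ℝ := fun y x => Pr P (fun ω => (X ω, Y ω)) (x, y) / Pr P Y y with hq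
  have q0 : ∀ ω, ∀ x ∈ univ.image X, 0 ≤ q (Y ω) x := fun ω x _ =>
    div_nonneg (Pr_nonneg hPp _ _) (Pr_nonneg hPp _ _)
  have q1 : ∀ ω, ∑ x ∈ univ.image X, q (Y ω) x ≤ 1 := by
    intro ω
    simp only [hq]
    rw [← sum_div, sum_Pr_pair]
    exact div_self_le_one _
  have qpos : ∀ ω, 0 < P ω → 0 < q (Y ω) (X ω) := fun ω h =>
    div_pos (Pr_pos hPp (fun ω => (X ω, Y ω)) h) (Pr_pos hPp Y h)
  have g1 := gibbs h1 X Y q (fun ω h => qpos ω (by
    have := mul_pos hs h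
    have := mul_nonneg hs'.le (h2.nonneg ω)
    show 0 < s * P1 ω + (1 - s) * P2 ω
    linarith)) q0 q1
  have g2 := gibbs h2 X Y q (fun ω h => qpos ω (by
    have := mul_pos hs' h
    have := mul_nonneg hs.le (h1.nonneg ω)
    show 0 < s * P1 ω + (1 - s) * P2 ω
    linarith)) q0 q1
  have g3 : Hc P X Y = ∑ ω, P ω * (- log (q (Y ω) (X ω))) := Hc_eq_sum hPp X Y
  rw [g3]
  have g4 : ∑ ω, P ω * (- log (q (Y ω) (X ω))) = s * ∑ ω, P1 ω * (- log (q (Y ω) (X ω)))
      + (1 - s) * ∑ ω, P2 ω * (- log (q (Y ω) (X ω))) := by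
    rw [mul_sum, mul_sum, ← sum_add_distrib]
    exact sum_congr rfl fun ω _ => by simp only [hP]; ring
  rw [g4]
  have := mul_le_mul_of_nonneg_left g1 hs.le
  have := mul_le_mul_of_nonneg_left g2 hs'.le
  linarith

/-- probabilities of a product -/
lemma Pr_prod_pair {L : Type*} [Fintype L] (μ : Ω → ℝ) (b : L → ℝ) (X : Ω → α) (x : α) (l : L) :
    Pr (fun w : Ω × L => μ w.1 * b w.2) (fun w => (X w.1, w.2)) (x, l) = Pr μ X x * b l := by
  classical
  unfold Pr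
  rw [Fintype.sum_prod_type, sum_mul]
  refine sum_congr rfl fun ω _ => ?_
  simp only [Prod.mk.injEq]
  by_cases h : X ω = x
  · rw [if_pos h]
    have : ∀ l', (if X ω = x ∧ l' = l then μ ω * b l' else 0) = if l' = l then μ ω * b l' else 0 := by
      intro l'; simp [h]
    rw [sum_congr rfl fun l' _ => this l', sum_ite_eq' univ l, if_pos (mem_univ l)]
  · simp [h]

/-- an independent variable can be added to the condition -/
theorem Hc_prod_indep {L : Type*} [Fintype L] {μ : Ω → ℝ} {b : L → ℝ} (hμ : IsProb μ)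
    (hb : IsProb b) (X : Ω → α) (Y : Ω → β) :
    Hc (fun w : Ω × L => μ w.1 * b w.2) (fun w => X w.1) (fun w => (Y w.1, w.2)) = Hc μ X Y := by
  classical
  have hp : IsProb (fun w : Ω × L => μ w.1 * b w.2) := mul_isProb hμ hb
  rw [Hc_eq_sum hp, Hc_eq_sum hμ, Fintype.sum_prod_type]
  refine sum_congr rfl fun ω _ => ?_
  have h1 : ∀ l : L, Pr (fun w : Ω × L => μ w.1 * b w.2) (fun w => (X w.1, (Y w.1, w.2)))
      (X ω, (Y ω, l)) = Pr μ (fun ω => (X ω, Y ω)) (X ω, Y ω) * b l := by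
    intro l
    rw [← Pr_prod_pair]
    exact Pr_congr (X := fun w : Ω × L => (X w.1, (Y w.1, w.2)))
      (Y := fun w : Ω × L => ((X w.1, Y w.1), w.2))
      (fun _ _ e => by
        simp only [Prod.mk.injEq] at e ⊢
        exact ⟨⟨e.1, e.2.1⟩, e.2.2⟩)
      (fun _ _ e => by
        simp only [Prod.mk.injEq] at e ⊢
        exact ⟨e.1.1, e.1.2, e.2⟩) (ω, l)
  have h2 : ∀ l : L, Pr (fun w : Ω × L => μ w.1 * b w.2) (fun w => (Y w.1, w.2)) (Y ω, l)
      = Pr μ Y (Y ω) * b l := fun l => Pr_prod_pair μ b Y (Y ω) l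
  have h3 : ∀ l : L, μ ω * b l * (- log (Pr (fun w : Ω × L => μ w.1 * b w.2)
      (fun w => (X w.1, (Y w.1, w.2))) (X ω, (Y ω, l)) /
      Pr (fun w : Ω × L => μ w.1 * b w.2) (fun w => (Y w.1, w.2)) (Y ω, l)))
      = b l * (μ ω * (- log (Pr μ (fun ω => (X ω, Y ω)) (X ω, Y ω) / Pr μ Y (Y ω)))) := by
    intro l
    rw [h1, h2]
    by_cases hl : b l = 0
    · rw [hl]; ring
    · rw [mul_div_mul_right _ _ hl]; ring
  rw [sum_congr rfl fun l _ => h3 l, ← sum_mul, hb.sum, one_mul]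

end general

/-! ## Letters added to an environment -/

section env
variable {Γ L Z : Type} [AddCommGroup Γ] [Fintype L]

/-- conditional entropy of `S₀ + S_n` given `Y₀` and the labels, for an environment
`(Ω₀, μ₀, S₀, Y₀)` and `n` independent letters of law `b` -/
def K {Ω0 : Type} [Fintype Ω0] {α : Type} (μ0 : Ω0 → ℝ) (S0 : Ω0 → Γ) (Y0 : Ω0 → α) (N : L → Γ)
    (zl : L → Z) (b : L → ℝ) (n : ℕ) : ℝ :=
  Hc (fun w : Ω0 × (Fin n → L) => μ0 w.1 * pw b w.2) (fun w => S0 w.1 + sm N w.2)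
    (fun w => (Y0 w.1, lb zl w.2))

/-- peeling off the first letter -/
lemma K_succ {Ω0 : Type} [Fintype Ω0] {α : Type} (μ0 : Ω0 → ℝ) (S0 : Ω0 → Γ) (Y0 : Ω0 → α)
    (N : L → Γ) (zl : L → Z) (b : L → ℝ) (n : ℕ) :
    K μ0 S0 Y0 N zl b (n + 1) = K (fun w : Ω0 × L => μ0 w.1 * b w.2) (fun w => S0 w.1 + N w.2)
      (fun w => (Y0 w.1, zl w.2)) N zl b n := by
  let e : ((Ω0 × L) × (Fin n → L)) ≃ (Ω0 × (Fin (n + 1) → L)) :=
    { toFun := fun w => (w.1.1, Fin.cons w.1.2 w.2)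
      invFun := fun w => ((w.1, w.2 0), fun i => w.2 i.succ)
      left_inv := fun w => by
        rcases w with ⟨⟨ω, l⟩, v⟩
        simp
      right_inv := fun w => by
        rcases w with ⟨ω, v⟩
        simp only [Prod.mk.injEq, true_and]
        exact Fin.cons_self_tail v }
  unfold K
  rw [← Hc_equiv e (fun w : Ω0 × (Fin (n + 1) → L) => μ0 w.1 * pw b w.2)
    (fun w => S0 w.1 + sm N w.2) (fun w => (Y0 w.1, lb zl w.2))]
  have hw : (fun w : (Ω0 × L) × (Fin n → L) => μ0 (e w).1 * pw b (e w).2)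
      = fun w : (Ω0 × L) × (Fin n → L) => μ0 w.1.1 * b w.1.2 * pw b w.2 := by
    funext w
    show μ0 w.1.1 * pw b (Fin.cons w.1.2 w.2 : Fin (n + 1) → L) = _
    unfold pw
    rw [Fin.prod_univ_succ]
    simp only [Fin.cons_zero, Fin.cons_succ]
    ring
  have hx : (fun w : (Ω0 × L) × (Fin n → L) => S0 (e w).1 + sm N (e w).2)
      = fun w : (Ω0 × L) × (Fin n → L) => S0 w.1.1 + N w.1.2 + sm N w.2 := by
    funext w
    show S0 w.1.1 + sm N (Fin.cons w.1.2 w.2 : Fin (n + 1) → L) = _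
    unfold sm
    rw [Fin.sum_univ_succ]
    simp only [Fin.cons_zero, Fin.cons_succ]
    rw [add_assoc]
  rw [hw, hx]
  refine Hc_congr (Det.refl _) (Det.refl _) ?_ ?_
  · intro w w' h
    have h1 := (Prod.mk.inj h).1
    have h2 := (Prod.mk.inj h).2
    have h3 : zl w.1.2 = zl w'.1.2 := by
      have := congrFun h2 0
      simpa [lb, e] using this
    have h4 : lb zl w.2 = lb zl w'.2 := by
      funext i
      have := congrFun h2 i.succ
      simpa [lb, e] using this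
    exact Prod.ext (Prod.ext h1 h3) h4
  · intro w w' h
    have h1 := (Prod.mk.inj h).1
    have h2 := (Prod.mk.inj h).2
    have h3 := (Prod.mk.inj h1).1
    have h4 := (Prod.mk.inj h1).2
    refine Prod.ext h3 ?_
    funext i
    refine Fin.cases ?_ (fun j => ?_) i
    · simpa [lb, e] using h4
    · have := congrFun h2 j
      simpa [lb, e] using this

/-- the letter can be revealed -/
lemma K_le_letter {Ω0 : Type} [Fintype Ω0] {α : Type} {μ0 : Ω0 → ℝ} (h0 : IsProb μ0)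
    (S0 : Ω0 → Γ) (Y0 : Ω0 → α) (N : L → Γ) (zl : L → Z) {b b' : L → ℝ} (hb : IsProb b)
    (hb' : IsProb b') (n : ℕ) :
    K μ0 S0 Y0 N zl b n ≤ K (fun w : Ω0 × L => μ0 w.1 * b' w.2) (fun w => S0 w.1 + N w.2)
      (fun w => (Y0 w.1, zl w.2)) N zl b n := by
  have hp : IsProb (fun w : (Ω0 × L) × (Fin n → L) => μ0 w.1.1 * b' w.1.2 * pw b w.2) :=
    mul_isProb (mul_isProb h0 hb') (pw_isProb hb)
  unfold K
  have h1 : Hc (fun w : (Ω0 × L) × (Fin n → L) => μ0 w.1.1 * b' w.1.2 * pw b w.2)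
      (fun w => S0 w.1.1 + N w.1.2 + sm N w.2)
      (fun w => ((Y0 w.1.1, lb zl w.2), w.1.2)) ≤
      Hc (fun w : (Ω0 × L) × (Fin n → L) => μ0 w.1.1 * b' w.1.2 * pw b w.2)
      (fun w => S0 w.1.1 + N w.1.2 + sm N w.2)
      (fun w => ((Y0 w.1.1, zl w.1.2), lb zl w.2)) := by
    refine Hc_anti hp _ ?_
    intro w w' h
    have h1 := (Prod.mk.inj h).1
    have h2 := (Prod.mk.inj h).2
    have h3 := (Prod.mk.inj h1).1
    have h4 := (Prod.mk.inj h1).2
    exact Prod.ext (Prod.ext h3 (congrArg zl h2)) h4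
  refine le_trans (le_of_eq ?_) h1
  -- replace the sum by the sum without the letter
  have h2 : Hc (fun w : (Ω0 × L) × (Fin n → L) => μ0 w.1.1 * b' w.1.2 * pw b w.2)
      (fun w => S0 w.1.1 + N w.1.2 + sm N w.2)
      (fun w => ((Y0 w.1.1, lb zl w.2), w.1.2)) =
      Hc (fun w : (Ω0 × L) × (Fin n → L) => μ0 w.1.1 * b' w.1.2 * pw b w.2)
      (fun w => S0 w.1.1 + sm N w.2)
      (fun w => ((Y0 w.1.1, lb zl w.2), w.1.2)) := by
    unfold Hc
    congr 1
    refine H_congr ?_ ?_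
    · intro w w' h
      have h1 : S0 w.1.1 + N w.1.2 + sm N w.2 = S0 w'.1.1 + N w'.1.2 + sm N w'.2 :=
        (Prod.mk.inj h).1
      have h2 := (Prod.mk.inj h).2
      have h3 : w.1.2 = w'.1.2 := (Prod.mk.inj h2).2
      refine Prod.ext ?_ h2
      show S0 w.1.1 + sm N w.2 = S0 w'.1.1 + sm N w'.2
      rw [h3, add_right_comm (S0 w.1.1), add_right_comm (S0 w'.1.1)] at h1
      exact add_right_cancel h1
    · intro w w' h
      have h1 : S0 w.1.1 + sm N w.2 = S0 w'.1.1 + sm N w'.2 := (Prod.mk.inj h).1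
      have h2 := (Prod.mk.inj h).2
      have h3 : w.1.2 = w'.1.2 := (Prod.mk.inj h2).2
      refine Prod.ext ?_ h2
      show S0 w.1.1 + N w.1.2 + sm N w.2 = S0 w'.1.1 + N w'.1.2 + sm N w'.2
      rw [h3, add_right_comm (S0 w.1.1), add_right_comm (S0 w'.1.1)]
      exact congrArg (fun x => x + N w'.1.2) h1
  rw [h2]
  let e : ((Ω0 × (Fin n → L)) × L) ≃ ((Ω0 × L) × (Fin n → L)) :=
    { toFun := fun w => ((w.1.1, w.2), w.1.2)
      invFun := fun w => ((w.1.1, w.2), w.1.2)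
      left_inv := fun w => rfl
      right_inv := fun w => rfl }
  rw [← Hc_equiv e (fun w : (Ω0 × L) × (Fin n → L) => μ0 w.1.1 * b' w.1.2 * pw b w.2)
      (fun w => S0 w.1.1 + sm N w.2)
      (fun w => ((Y0 w.1.1, lb zl w.2), w.1.2))]
  have hw : (fun w : (Ω0 × (Fin n → L)) × L => μ0 (e w).1.1 * b' (e w).1.2 * pw b (e w).2)
      = fun w : (Ω0 × (Fin n → L)) × L => (μ0 w.1.1 * pw b w.1.2) * b' w.2 := by
    funext w
    show μ0 w.1.1 * b' w.2 * pw b w.1.2 = _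
    ring
  rw [hw]
  exact (Hc_prod_indep (mul_isProb h0 (pw_isProb hb)) hb'
    (fun w : Ω0 × (Fin n → L) => S0 w.1 + sm N w.2)
    (fun w : Ω0 × (Fin n → L) => (Y0 w.1, lb zl w.2))).symm

/-- one step of thinning -/
lemma K_thin {Ω0 : Type} [Fintype Ω0] {α : Type} {μ0 : Ω0 → ℝ} (h0 : IsProb μ0)
    (S0 : Ω0 → Γ) (Y0 : Ω0 → α) (N : L → Γ) (zl : L → Z) {b b1 b2 : L → ℝ} (hb : IsProb b)
    (hb1 : IsProb b1) (hb2 : IsProb b2) {s : ℝ} (hs : 0 < s) (hs1 : s < 1)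
    (hmix : ∀ l, b l = s * b1 l + (1 - s) * b2 l) (n : ℕ) :
    s * K (fun w : Ω0 × L => μ0 w.1 * b1 w.2) (fun w => S0 w.1 + N w.2)
      (fun w => (Y0 w.1, zl w.2)) N zl b n + (1 - s) * K μ0 S0 Y0 N zl b n ≤
    K μ0 S0 Y0 N zl b (n + 1) := by
  have h1 := K_le_letter h0 S0 Y0 N zl hb hb2 n
  have h2 := mul_le_mul_of_nonneg_left h1 (by linarith : (0 : ℝ) ≤ 1 - s)
  rw [K_succ]
  refine le_trans (add_le_add_right h2 _) ?_
  have p1 : IsProb (fun w : (Ω0 × L) × (Fin n → L) => μ0 w.1.1 * b1 w.1.2 * pw b w.2) :=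
    mul_isProb (mul_isProb h0 hb1) (pw_isProb hb)
  have p2 : IsProb (fun w : (Ω0 × L) × (Fin n → L) => μ0 w.1.1 * b2 w.1.2 * pw b w.2) :=
    mul_isProb (mul_isProb h0 hb2) (pw_isProb hb)
  have h3 := Hc_concave p1 p2 hs hs1 (fun w : (Ω0 × L) × (Fin n → L) =>
      S0 w.1.1 + N w.1.2 + sm N w.2) (fun w => ((Y0 w.1.1, zl w.1.2), lb zl w.2))
  refine le_trans h3 (le_of_eq ?_)
  unfold K
  congr 1
  funext w
  show s * (μ0 w.1.1 * b1 w.1.2 * pw b w.2) + (1 - s) * (μ0 w.1.1 * b2 w.1.2 * pw b w.2)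
    = μ0 w.1.1 * b w.1.2 * pw b w.2
  rw [hmix w.1.2]
  ring

/-- expectation of `f` under the binomial law, defined by recursion -/
def ebin (s : ℝ) : ℕ → (ℕ → ℝ) → ℝ
  | 0, f => f 0
  | n + 1, f => s * ebin s n (fun j => f (j + 1)) + (1 - s) * ebin s n f

lemma ebin_mono {s : ℝ} (hs : 0 ≤ s) (hs1 : s ≤ 1) (n : ℕ) {f g : ℕ → ℝ} (h : ∀ j, f j ≤ g j) :
    ebin s n f ≤ ebin s n g := by
  induction n generalizing f g with
  | zero => exact h 0
  | succ n ih =>
    have h1 := ih (f := fun j => f (j + 1)) (g := fun j => g (j + 1)) (fun j => h (j + 1))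
    have h2 := ih h
    have h3 : 0 ≤ 1 - s := by linarith
    exact add_le_add (mul_le_mul_of_nonneg_left h1 hs) (mul_le_mul_of_nonneg_left h2 h3)

lemma ebin_quad (s A B : ℝ) (n : ℕ) (c : ℝ) :
    ebin s n (fun j => A - B * ((j : ℝ) - c) ^ 2)
      = A - B * ((n * s - c) ^ 2 + n * s * (1 - s)) := by
  induction n generalizing c with
  | zero => simp [ebin]
  | succ n ih =>
    have h1 : (fun j : ℕ => A - B * (((j + 1 : ℕ) : ℝ) - c) ^ 2)
        = fun j : ℕ => A - B * ((j : ℝ) - (c - 1)) ^ 2 := by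
      funext j
      push_cast
      ring
    show s * ebin s n (fun j : ℕ => A - B * (((j + 1 : ℕ) : ℝ) - c) ^ 2)
      + (1 - s) * ebin s n (fun j : ℕ => A - B * ((j : ℝ) - c) ^ 2) = _
    rw [h1, ih, ih]
    push_cast
    ring

/-- **Thinning**: `n` letters of law `s b1 + (1-s) b2` contain a binomial number of letters of
law `b1`. -/
theorem K_ge_ebin {N : L → Γ} {zl : L → Z} {b b1 b2 : L → ℝ} (hb : IsProb b)
    (hb1 : IsProb b1) (hb2 : IsProb b2) {s : ℝ} (hs : 0 < s) (hs1 : s < 1)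
    (hmix : ∀ l, b l = s * b1 l + (1 - s) * b2 l) (n : ℕ) :
    ∀ {Ω0 : Type} [Fintype Ω0] {α : Type} {μ0 : Ω0 → ℝ} (_ : IsProb μ0)
    (S0 : Ω0 → Γ) (Y0 : Ω0 → α), ebin s n (K μ0 S0 Y0 N zl b1) ≤ K μ0 S0 Y0 N zl b n := by
  induction n with
  | zero =>
    intro Ω0 _ α μ0 h0 S0 Y0
    have : K μ0 S0 Y0 N zl b 0 = K μ0 S0 Y0 N zl b1 0 := by
      unfold K
      congr 1
    show K μ0 S0 Y0 N zl b1 0 ≤ _
    rw [this]
  | succ n ih =>
    intro Ω0 _ α μ0 h0 S0 Y0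
    refine le_trans ?_ (K_thin h0 S0 Y0 N zl hb hb1 hb2 hs hs1 hmix n)
    show s * ebin s n (fun j => K μ0 S0 Y0 N zl b1 (j + 1))
      + (1 - s) * ebin s n (K μ0 S0 Y0 N zl b1) ≤ _
    have h1 := ih (mul_isProb h0 hb1) (fun w : Ω0 × L => S0 w.1 + N w.2)
      (fun w => (Y0 w.1, zl w.2))
    have h2 := ih h0 S0 Y0
    have h3 : (fun j => K μ0 S0 Y0 N zl b1 (j + 1)) = K (fun w : Ω0 × L => μ0 w.1 * b1 w.2)
      (fun w => S0 w.1 + N w.2) (fun w => (Y0 w.1, zl w.2)) N zl b1 := by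
      funext j
      exact K_succ μ0 S0 Y0 N zl b1 j
    rw [h3]
    have h4 : 0 ≤ 1 - s := by linarith
    exact add_le_add (mul_le_mul_of_nonneg_left h1 hs.le) (mul_le_mul_of_nonneg_left h2 h4)

/-- the words without environment -/
lemma K_unit (N : L → Γ) (zl : L → Z) (b : L → ℝ) (n : ℕ) :
    K (fun _ : Unit => (1 : ℝ)) (fun _ => (0 : Γ)) (fun _ => ()) N zl b n
      = Hc (pw (ι := Fin n) b) (sm N) (lb zl) := by
  unfold K
  rw [← Hc_equiv (Equiv.punitProd (Fin n → L)) (pw (ι := Fin n) b) (sm N) (lb zl)]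
  have h1 : (fun w : Unit × (Fin n → L) => (1 : ℝ) * pw b w.2)
      = fun w : Unit × (Fin n → L) => pw b ((Equiv.punitProd (Fin n → L)) w) := by
    funext w
    rw [one_mul]
    rfl
  have h2 : (fun w : Unit × (Fin n → L) => (0 : Γ) + sm N w.2)
      = fun w : Unit × (Fin n → L) => sm N ((Equiv.punitProd (Fin n → L)) w) := by
    funext w
    rw [zero_add]
    rfl
  rw [h1, h2]
  refine Hc_congr (Det.refl _) (Det.refl _) ?_ ?_
  · intro w w' h
    exact (Prod.mk.inj h).2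
  · intro w w' h
    exact Prod.ext rfl h

lemma isProb_unit : IsProb (fun _ : Unit => (1 : ℝ)) := ⟨fun _ => zero_le_one, by simp⟩

/-- word entropy as a function of the length -/
lemma hw_mono {N : L → Γ} {zl : L → Z} {b : L → ℝ} (hb : IsProb b) :
    Monotone fun n : ℕ => Hc (pw (ι := Fin n) b) (sm N) (lb zl) := by
  refine monotone_nat_of_le_succ fun n => ?_
  rw [← K_unit N zl b n, ← K_unit N zl b (n + 1), K_succ]
  exact K_le_letter isProb_unit _ _ N zl hb hb n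

/-- **Thinning at rate `5/16`** -/
theorem thin_le {N : L → Γ} {zl : L → Z} {b b1 : L → ℝ} (hb : IsProb b)
    (hb1 : IsProb b1) (hle : ∀ l, 5 / 16 * b1 l ≤ b l) (p : ℕ) (hp : 56 ≤ p) :
    Hc (pw (ι := Fin (p / 16)) b1) (sm N) (lb zl)
      ≤ (1 + 56 / (p : ℝ)) * Hc (pw (ι := Fin p) b) (sm N) (lb zl) := by
  set f : ℕ → ℝ := fun n => Hc (pw (ι := Fin n) b1) (sm N) (lb zl) with hf
  have hfm : Monotone f := hw_mono hb1
  have hf0 : ∀ n, 0 ≤ f n := fun n => Hc_nonneg (pw_isProb hb1) _ _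
  set b2 : L → ℝ := fun l => (b l - 5 / 16 * b1 l) / (11 / 16) with hb2d
  have hb2 : IsProb b2 := by
    refine ⟨fun l => div_nonneg (by linarith [hle l]) (by norm_num), ?_⟩
    simp only [hb2d]
    rw [← sum_div, sum_sub_distrib, ← mul_sum, hb.sum, hb1.sum]
    norm_num
  have hmix : ∀ l, b l = 5 / 16 * b1 l + (1 - 5 / 16) * b2 l := by
    intro l
    simp only [hb2d]
    ring
  have h1 := K_ge_ebin (N := N) (zl := zl) hb hb1 hb2 (by norm_num : (0 : ℝ) < 5 / 16)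
    (by norm_num) hmix p isProb_unit (fun _ => (0 : Γ)) (fun _ => ())
  rw [K_unit] at h1
  have h2 : K (fun _ : Unit => (1 : ℝ)) (fun _ => (0 : Γ)) (fun _ => ()) N zl b1 = f := by
    funext n
    exact K_unit N zl b1 n
  rw [h2] at h1
  have hpR : (56 : ℝ) ≤ p := by exact_mod_cast hp
  have hp0 : (0 : ℝ) < p := by linarith
  set m : ℕ := p / 16 with hm
  have hm1 : (m : ℝ) ≤ p / 16 := by
    have := @Nat.cast_div_le ℝ _ _ _ p 16
    simpa [hm] using this
  set c : ℝ := p * (5 / 16) with hc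
  have hd : (p : ℝ) / 4 ≤ c - m := by rw [hc]; linarith
  have hd0 : 0 < c - m := by linarith
  have h3 : ebin (5 / 16) p (fun j => f m - (f m / (c - m) ^ 2) * ((j : ℝ) - c) ^ 2)
      ≤ ebin (5 / 16) p f := by
    refine ebin_mono (by norm_num) (by norm_num) p fun j => ?_
    by_cases hj : m ≤ j
    · have := hfm hj
      have h4 : 0 ≤ (f m / (c - m) ^ 2) * ((j : ℝ) - c) ^ 2 :=
        mul_nonneg (div_nonneg (hf0 m) (sq_nonneg _)) (sq_nonneg _)
      linarith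
    · push Not at hj
      have hj' : (j : ℝ) ≤ m := by exact_mod_cast hj.le
      have h5 : (c - m) ^ 2 ≤ ((j : ℝ) - c) ^ 2 := by
        have : ((j : ℝ) - c) ^ 2 = (c - j) ^ 2 := by ring
        rw [this]
        exact pow_le_pow_left₀ hd0.le (by linarith) 2
      have h6 : f m ≤ (f m / (c - m) ^ 2) * ((j : ℝ) - c) ^ 2 := by
        rw [div_mul_eq_mul_div, le_div_iff₀ (by positivity)]
        exact mul_le_mul_of_nonneg_left h5 (hf0 m)
      have := hf0 j
      linarith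
  rw [ebin_quad] at h3
  have h7 : f m / (c - m) ^ 2 * ((p * (5 / 16) - c) ^ 2 + p * (5 / 16) * (1 - 5 / 16))
      ≤ f m * (4 / p) := by
    have e1 : (p : ℝ) * (5 / 16) - c = 0 := by rw [hc]; ring
    rw [e1]
    have e2 : ((0 : ℝ) ^ 2 + p * (5 / 16) * (1 - 5 / 16)) = p * (55 / 256) := by ring
    rw [e2, div_mul_eq_mul_div, div_le_iff₀ (by positivity)]
    have e3 : ((p : ℝ) / 4) ^ 2 ≤ (c - m) ^ 2 := pow_le_pow_left₀ (by positivity) hd 2
    have e4 : (p : ℝ) * (55 / 256) ≤ 4 / p * (c - m) ^ 2 := by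
      refine le_trans ?_ (mul_le_mul_of_nonneg_left e3 (by positivity))
      have : 4 / (p : ℝ) * ((p : ℝ) / 4) ^ 2 = p * (1 / 4) := by
        field_simp
      rw [this]
      nlinarith
    calc f m * (p * (55 / 256)) ≤ f m * (4 / p * (c - m) ^ 2) :=
          mul_le_mul_of_nonneg_left e4 (hf0 m)
      _ = f m * (4 / p) * (c - m) ^ 2 := by ring
  have h8 : f m * (1 - 4 / p) ≤ Hc (pw (ι := Fin p) b) (sm N) (lb zl) := by
    have : f m * (1 - 4 / p) = f m - f m * (4 / p) := by ring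
    linarith
  have h9 : 1 ≤ (1 + 56 / (p : ℝ)) * (1 - 4 / p) := by
    have e : (1 + 56 / (p : ℝ)) * (1 - 4 / p) = 1 + (52 * p - 224) / p ^ 2 := by
      field_simp
      ring
    rw [e]
    have : 0 ≤ (52 * (p : ℝ) - 224) / p ^ 2 := div_nonneg (by linarith) (by positivity)
    linarith
  calc f m = f m * 1 := (mul_one _).symm
    _ ≤ f m * ((1 + 56 / (p : ℝ)) * (1 - 4 / p)) := mul_le_mul_of_nonneg_left h9 (hf0 m)
    _ = (1 + 56 / (p : ℝ)) * (f m * (1 - 4 / p)) := by ring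
    _ ≤ (1 + 56 / (p : ℝ)) * Hc (pw (ι := Fin p) b) (sm N) (lb zl) :=
        mul_le_mul_of_nonneg_left h8 (by positivity)

end env

end Vale.Agent.P091.AD.H880
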